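import Vale.Agent.P088.R2.H794.B.Spec2
import Vale.Agent.P088.H198.E.Defs

/-!
# P088, two metrics on a smooth domain: bounds of every order and small oscillation, rows
-/

open MeasureTheory Set Filter Topology
open scoped ContDiff Matrix

noncomputable section

namespace Vale.Agent.P088.HY.Bd

open Vale.Agent.P088.LR Vale.Agent.P088.LR.B Vale.Agent.P088.LR.CF Vale.Agent.P088.H639

variable {n : ℕ}

/-- A smooth metric on `ℝ^n`; the derivatives of order `l ≤ k` of `g_ij` are at most `b l`, and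
`det g ≥ 1 / b 0`. -/
def MetB (k : ℕ) (b : ℕ → ℝ) (g : MF n) : Prop :=
  SmM g ∧ (∀ x, (g x).PosDef) ∧ (∀ i j, E.Cb k b (fun x => g x i j)) ∧ ∀ x, (b 0)⁻¹ ≤ (g x).det

/-- The oscillation of `g_ij` on `ℝ^n` is at most `ε`. -/
def Osc (ε : ℝ) (g : MF n) : Prop := ∀ i j x y, |g x i j - g y i j| ≤ ε

/-- (B_OS) metrics with small oscillation; from B_CC by interpolation. -/
def RowBOS : Prop := ∀ n : ℕ, 3 ≤ n → ∀ ρ : V n → ℝ, SDom ρ → ∀ b : ℕ → ℝ,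
  ∃ (k : ℕ) (ε : ℝ), 0 < ε ∧ ∀ g₁ g₂ : MF n, MetB k b g₁ → MetB k b g₂ → Osc ε g₁ → Osc ε g₂ →
  RigS ρ g₁ g₂

/-- (B_SB) metrics on a small domain; from B_OS by scaling and cut-off. -/
def RowBSB : Prop := ∀ n : ℕ, 3 ≤ n → ∀ ρ : V n → ℝ, SDom ρ → ∀ b : ℕ → ℝ,
  ∃ (k : ℕ) (r₀ : ℝ), 0 < r₀ ∧ ∀ g₁ g₂ : MF n, MetB k b g₁ → MetB k b g₂ →
  ∀ (r : ℝ) (x₀ : V n), 0 < r → r ≤ r₀ → RigS (scR ρ r x₀) g₁ g₂

/-- The final statement for domains: two arbitrary metrics with given bounds, with small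
oscillation, or on a small domain. -/
def FinD2 : Prop := ∀ n : ℕ, 3 ≤ n → ∀ ρ : V n → ℝ, SDom ρ → ∀ b : ℕ → ℝ,
  ∃ (k : ℕ) (r₀ ε : ℝ), 0 < r₀ ∧ 0 < ε ∧ ∀ g₁ g₂ : MF n, MetB k b g₁ → MetB k b g₂ →
  (Osc ε g₁ → Osc ε g₂ → RigT ρ g₁ g₂) ∧
    ∀ (r : ℝ) (x₀ : V n), 0 < r → r ≤ r₀ → RigT (scR ρ r x₀) g₁ g₂

end Vale.Agent.P088.HY.Bd
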