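import Vale.Agent.P088.R2.H794.B.Spec

/-!
# P088, two metrics on a small smooth domain: rows

From two metrics near `e` (row B_SC) to two metrics, each one near some constant metric, and to two
arbitrary metrics on a small domain.
-/

open MeasureTheory Set Filter Topology
open scoped ContDiff Matrix

noncomputable section

namespace Vale.Agent.P088.HY.Bd

open Vale.Agent.P088.LR Vale.Agent.P088.LR.B Vale.Agent.P088.LR.CF Vale.Agent.P088.H639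

variable {n : ℕ}

/-- `g` is `C^k`-near the constant matrix `G`. -/
def NrC (k : ℕ) (ε : ℝ) (G : Matrix (Fin n) (Fin n) ℝ) (g : MF n) : Prop :=
  ∀ i j, Cl k ε (fun x => g x i j - G i j)

/-- A constant metric with `|G_ij| ≤ B`, `det G ≥ 1 / B`. -/
def CoG (B : ℝ) (G : Matrix (Fin n) (Fin n) ℝ) : Prop :=
  G.PosDef ∧ (∀ i j, |G i j| ≤ B) ∧ B⁻¹ ≤ G.det

/-- Equal energies of `g₁`, `g₂` on `{ρ > 0}` imply `g₂ = Φ^* g₁`. -/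
def RigS (ρ : V n → ℝ) (g₁ g₂ : MF n) : Prop :=
  SE (Om ρ) (sg g₁) (sg g₂) → ∃ Φ Ψ, IsoOn ρ g₁ g₂ Φ Ψ

/-- (B_LC) two metrics near one constant metric; from B_SC by a linear change of coordinates. -/
def RowBLC : Prop := ∀ n : ℕ, 3 ≤ n → ∀ ρ : V n → ℝ, SDom ρ → ∀ G : Matrix (Fin n) (Fin n) ℝ,
  G.PosDef → ∃ (k : ℕ) (ε : ℝ), 0 < ε ∧ ∀ g₁ g₂ : MF n, SmM g₁ → SmM g₂ →
  (∀ x, (g₁ x).PosDef) → (∀ x, (g₂ x).PosDef) → NrC k ε G g₁ → NrC k ε G g₂ → RigS ρ g₁ g₂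

/-- (B_UN) uniformity in the constant metric; from B_LC by compactness of `{G | CoG B G}`. -/
def RowBUN : Prop := ∀ n : ℕ, 3 ≤ n → ∀ ρ : V n → ℝ, SDom ρ → ∀ B : ℝ, 0 < B →
  ∃ (k : ℕ) (ε : ℝ), 0 < ε ∧ ∀ G : Matrix (Fin n) (Fin n) ℝ, CoG B G → ∀ g₁ g₂ : MF n, SmM g₁ →
  SmM g₂ → (∀ x, (g₁ x).PosDef) → (∀ x, (g₂ x).PosDef) → NrC k ε G g₁ → NrC k ε G g₂ →
  RigS ρ g₁ g₂

/-- (B_LIN) the energies of the linear functions determine the constant metric approximately. -/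
def RowBLIN : Prop := ∀ n : ℕ, 3 ≤ n → ∀ Ω : Set (V n), IsOpen Ω → Bornology.IsBounded Ω →
  Ω.Nonempty → ∀ B η : ℝ, 0 < B → 0 < η → ∃ ε > 0, ∀ G₁ G₂ : Matrix (Fin n) (Fin n) ℝ,
  CoG B G₁ → CoG B G₂ → ∀ g₁ g₂ : MF n, SmM g₁ → SmM g₂ → (∀ x, (g₁ x).PosDef) →
  (∀ x, (g₂ x).PosDef) → (∀ x ∈ Ω, ∀ i j, |g₁ x i j - G₁ i j| ≤ ε) →
  (∀ x ∈ Ω, ∀ i j, |g₂ x i j - G₂ i j| ≤ ε) → SE Ω (sg g₁) (sg g₂) → ∀ i j, |G₁ i j - G₂ i j| ≤ η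

/-- (B_CC) two metrics, each one near a constant metric; from B_UN and B_LIN. -/
def RowBCC : Prop := ∀ n : ℕ, 3 ≤ n → ∀ ρ : V n → ℝ, SDom ρ → ∀ B : ℝ, 0 < B →
  ∃ (k : ℕ) (ε : ℝ), 0 < ε ∧ ∀ G₁ G₂ : Matrix (Fin n) (Fin n) ℝ, CoG B G₁ → CoG B G₂ →
  ∀ g₁ g₂ : MF n, SmM g₁ → SmM g₂ → (∀ x, (g₁ x).PosDef) → (∀ x, (g₂ x).PosDef) →
  NrC k ε G₁ g₁ → NrC k ε G₂ g₂ → RigS ρ g₁ g₂

/-- The domain `{ρ > 0}` scaled by `r` and moved to `x₀`. -/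
def scR (ρ : V n → ℝ) (r : ℝ) (x₀ : V n) (x : V n) : ℝ := ρ (r⁻¹ • (x - x₀))

/-- (B_SM) two arbitrary metrics on a small domain; from B_CC by scaling and cut-off. -/
def RowBSM : Prop := ∀ n : ℕ, 3 ≤ n → ∀ ρ : V n → ℝ, SDom ρ → ∀ B : ℝ, 0 < B →
  ∃ (k : ℕ) (r₀ : ℝ), 0 < r₀ ∧ ∀ (r : ℝ) (x₀ : V n), 0 < r → r ≤ r₀ → ∀ g₁ g₂ : MF n, SmM g₁ →
  SmM g₂ → (∀ x, (g₁ x).PosDef) → (∀ x, (g₂ x).PosDef) → (∀ i j, Cl k B (fun x => g₁ x i j)) →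
  (∀ i j, Cl k B (fun x => g₂ x i j)) → (∀ x, B⁻¹ ≤ (g₁ x).det) → (∀ x, B⁻¹ ≤ (g₂ x).det) →
  RigS (scR ρ r x₀) g₁ g₂

/-- (B_RT) connections and patches, general form (no smallness). -/
def RowBRT : Prop := ∀ n : ℕ, 3 ≤ n → ∀ ρ : V n → ℝ, SDom ρ → ∀ g₁ g₂ : MF n, SmM g₁ → SmM g₂ →
  (∀ x, (g₁ x).PosDef) → (∀ x, (g₂ x).PosDef) → RigS ρ g₁ g₂ → RigT ρ g₁ g₂

/-- The final statement for domains. (I) two arbitrary metrics on a small domain; (II) two metrics,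
each one near a constant metric, on any domain. -/
def FinDom : Prop := ∀ n : ℕ, 3 ≤ n → ∀ ρ : V n → ℝ, SDom ρ → ∀ B : ℝ, 0 < B → ∃ k : ℕ,
  (∃ r₀ : ℝ, 0 < r₀ ∧ ∀ (r : ℝ) (x₀ : V n), 0 < r → r ≤ r₀ → ∀ g₁ g₂ : MF n, SmM g₁ →
    SmM g₂ → (∀ x, (g₁ x).PosDef) → (∀ x, (g₂ x).PosDef) → (∀ i j, Cl k B (fun x => g₁ x i j)) →
    (∀ i j, Cl k B (fun x => g₂ x i j)) → (∀ x, B⁻¹ ≤ (g₁ x).det) → (∀ x, B⁻¹ ≤ (g₂ x).det) →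
    RigT (scR ρ r x₀) g₁ g₂) ∧
  ∃ ε : ℝ, 0 < ε ∧ ∀ G₁ G₂ : Matrix (Fin n) (Fin n) ℝ, CoG B G₁ → CoG B G₂ →
    ∀ g₁ g₂ : MF n, SmM g₁ → SmM g₂ → (∀ x, (g₁ x).PosDef) → (∀ x, (g₂ x).PosDef) →
    NrC k ε G₁ g₁ → NrC k ε G₂ g₂ → RigT ρ g₁ g₂

end Vale.Agent.P088.HY.Bd
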