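import Vale.Agent.P088.H72.X.Defs
import Vale.Agent.P088.H198.SdP
import Vale.Agent.P088.R2.H558.Spec

/-!
# P088, two metrics near the flat one on a smooth domain, no condition at the boundary: rows

Rows are literal statements; the owner of a row proves `theorem rowBX : RowBX` in an own file.
They are the rows of `H72/X/Defs` with the base `σ · 1` replaced by a general tensor `s`.
-/

open MeasureTheory Set Filter Topology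
open scoped ContDiff Matrix

noncomputable section

namespace Vale.Agent.P088.HY.Bd

open Vale.Agent.P088.LR Vale.Agent.P088.LR.B Vale.Agent.P088.LR.CF Vale.Agent.P088.H639

variable {n : ℕ}

/-- `s ≥ μ` and `|s_ij| ≤ 1/μ`. -/
def Elp (μ : ℝ) (s : MF n) : Prop :=
  (∀ x (b : V n), μ * ∑ i, b i ^ 2 ≤ ∑ i, ∑ j, s x i j * b i * b j) ∧ ∀ x i j, |s x i j| ≤ μ⁻¹

/-- (B_EN) energy estimate, general base `s`, `U` any function (quasimode). -/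
def RowBEN : Prop := ∀ (n : ℕ) (μ : ℝ), 0 < μ → ∃ C > 0, ∀ ρ : V n → ℝ, Dom ρ → ∀ s t : MF n,
  SmM s → SmM t → (∀ x, (s x).PosSemidef) → (∀ x, (t x).PosSemidef) → Elp μ s →
  (∀ x ∈ Om ρ, ∀ i j, |t x i j - s x i j| ≤ μ / (2 * (n + 1))) → SE (Om ρ) s t →
  ∀ U : V n → ℂ, ContDiff ℝ ∞ U →
  ‖bl (Om ρ) (fun x => t x - s x) U (fun x => (starRingEnd ℂ) (U x))‖ ≤
    C * ((∫ x in Om ρ, ∑ i, ∑ j, |t x i j - s x i j| ^ 2 * ‖pd j U x‖ ^ 2) +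
      ∫ x in Om ρ, ‖dv s U x‖ ^ 2)

/-- (B_QU) quasimodes concentrating at a boundary point, general base `s`. `τ` is a unit vector
tangent to the boundary at `p`; the direction of the gradient at `p` is `i τ + β ∇ρ`. -/
def RowBQU : Prop := ∀ {n : ℕ} (ρ : V n → ℝ), Dom ρ → ∀ s : MF n, SmM s → (∀ x, (s x).PosDef) →
  ∀ p, ρ p = 0 → ∀ τ : V n, ∑ i, τ i ^ 2 = 1 → ∑ i, τ i * pd i ρ p = 0 → ∃ β : ℂ,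
  ‖β‖ ^ 2 * gr s ρ ρ p = ∑ i, ∑ j, s p i j * τ i * τ j ∧
  ∀ j : ℕ, ∃ (U : ℕ → V n → ℂ) (Z : ℕ → ℝ), (∀ N, ContDiff ℝ ∞ (U N)) ∧ (∀ N, 0 < Z N) ∧
    Tendsto (fun N => (Z N)⁻¹ * ∫ x in Om ρ, ‖dv s (U N) x‖ ^ 2) atTop (𝓝 0) ∧
    ∀ F : V n → ℂ, ContinuousOn F (closure (Om ρ)) →
      ∀ a b, Tendsto (fun N => ((Z N : ℝ) : ℂ)⁻¹ * ∫ x in Om ρ, ((ρ x ^ j : ℝ) : ℂ) * F x *
        pd a (U N) x * (starRingEnd ℂ) (pd b (U N) x)) atTop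
        (𝓝 (F p * (Complex.I * τ a + β * (pd a ρ p : ℝ)) *
          (starRingEnd ℂ) (Complex.I * τ b + β * (pd b ρ p : ℝ))))

/-- (B_BD) the boundary step, general base; from B_QU, B_EN. -/
def RowBBD : Prop := ∀ (n : ℕ), 3 ≤ n → ∀ μ : ℝ, 0 < μ → ∃ a₀ > 0, ∀ (ρ : V n → ℝ), Dom ρ →
  ∀ s t : MF n, SmM s → SmM t → (∀ x, (s x).PosDef) → (∀ x, (t x).PosSemidef) → Elp μ s →
  SE (Om ρ) s t → (∀ x ∈ Om ρ, ∀ i j, |t x i j - s x i j| ≤ a₀) →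
  ∀ (m : ℕ) (b : Fin n → Fin n → V n → ℝ),
  (∀ i j, ContDiff ℝ ∞ (b i j)) → (∀ i j x, b i j x = b j i x) →
  (∀ x i j, t x i j - s x i j = ρ x ^ m * b i j x) →
  (∀ x, ρ x = 0 → ∀ i, ∑ j, b i j x * pd j ρ x = 0) → ∀ x, ρ x = 0 → ∀ i j, b i j x = 0

/-- (B_INF) contact of infinite order, general base; from HAD, B_BD, TOPO. -/
def RowBINF : Prop := ∀ (n : ℕ), 3 ≤ n → ∀ μ : ℝ, 0 < μ → ∃ a₀ > 0, ∀ (ρ : V n → ℝ), Dom ρ →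
  ∀ s t : MF n, SmM s → SmM t → (∀ x, (s x).PosDef) → (∀ x, (t x).PosSemidef) → Elp μ s →
  SE (Om ρ) s t → (∀ x ∈ Om ρ, ∀ i j, |t x i j - s x i j| ≤ a₀) →
  ∀ w₁ : V n → V n, ContDiff ℝ ∞ w₁ → (∀ x, ρ x = 0 → (jm w₁ x).det ≠ 0) →
  (∀ a x, ρ x = 0 → gr t (fun y => y a + w₁ y a) ρ x = gr s (fun y => y a + w₁ y a) ρ x) →
  (∀ a (m : ℕ), ∃ r > 0, ∃ E : V n → ℝ, ContDiff ℝ ∞ E ∧ ∀ x, |ρ x| < r →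
    dr t (fun y => y a + w₁ y a) x = ρ x ^ m * E x) →
  (∀ a (m : ℕ), ∃ r > 0, ∃ E : V n → ℝ, ContDiff ℝ ∞ E ∧ ∀ x, |ρ x| < r →
    dr s (fun y => y a + w₁ y a) x = ρ x ^ m * E x) →
  ∀ m : ℕ, ∃ b : Fin n → Fin n → V n → ℝ, (∀ i j, ContDiff ℝ ∞ (b i j)) ∧
    ∀ x i j, t x i j - s x i j = ρ x ^ m * b i j x

/-- (B_FIN) rigidity of two tensors near `1` on a smooth domain in the small ball, no condition at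
the boundary; from TOPO, BOREL, BX.MAP, B_INF, EXT, LOG. -/
def RowBFIN : Prop := ∀ n : ℕ, 3 ≤ n → ∀ ρ : V n → ℝ, Dom ρ → (∀ x ∉ bls n, ρ x = -1) →
  ∃ (k : ℕ) (ε : ℝ), 0 < ε ∧ ∀ s₁ s₂ : MF n, SmM s₁ → SmM s₂ → (∀ x, (s₁ x).PosDef) →
  (∀ x, (s₂ x).PosDef) → (∀ x ∉ bal n, s₁ x = 1) →
  (∀ i j, Cl k ε (fun x => s₁ x i j - dl i j)) → (∀ i j, Cl k ε (fun x => s₂ x i j - dl i j)) →
  SE (Om ρ) s₁ s₂ →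
  ∃ Φ Ψ : V n → V n, ContDiff ℝ ∞ Φ ∧ ContDiff ℝ ∞ Ψ ∧
    (∀ x, Ψ (Φ x) = x) ∧ (∀ y, Φ (Ψ y) = y) ∧ (∀ x, ρ x = 0 → Φ x = x) ∧
    (∀ x, 0 < ρ (Φ x) ↔ 0 < ρ x) ∧ (∀ x, 0 < (Jm Φ x).det) ∧
    ∀ x, 0 ≤ ρ x → (Jm Φ x).det⁻¹ • (Jm Φ x * s₂ x * (Jm Φ x)ᵀ) = s₁ (Φ x)

/-- `Φ` is a diffeomorphism of `ℝ^n` (with inverse `Ψ`) which preserves `{ρ > 0}`, is the identity
on `{ρ = 0}`, and `g₂ = Φ^* g₁` on `{ρ ≥ 0}`. -/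
def IsoOn (ρ : V n → ℝ) (g₁ g₂ : MF n) (Φ Ψ : V n → V n) : Prop :=
  ContDiff ℝ ∞ Φ ∧ ContDiff ℝ ∞ Ψ ∧ (∀ x, Ψ (Φ x) = x) ∧ (∀ y, Φ (Ψ y) = y) ∧
    (∀ x, ρ x = 0 → Φ x = x) ∧ (∀ x, 0 < ρ (Φ x) ↔ 0 < ρ x) ∧ (∀ x, 0 < (Jm Φ x).det) ∧
    ∀ x, 0 ≤ ρ x → g₂ x = (Jm Φ x)ᵀ * g₁ (Φ x) * Jm Φ x

/-- The conclusion for the metrics `g₁` and `g₂` on `{ρ > 0}`. Equal Dirichlet energies imply
`g₂ = Φ^* g₁`; equal data on a patch `∂Ω ∩ G` of `(g₁, A₁)` and `(g₂, A₂)`, `A₁` globally trivial,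
the pairs equal near the rest of the boundary, imply the same and `A₂ = U⁻¹ (Φ^* A₁) U + U⁻¹ dU`,
`U = 1` on the boundary. -/
def RigT (ρ : V n → ℝ) (g₁ g₂ : MF n) : Prop :=
  (SE (Om ρ) (sg g₁) (sg g₂) → ∃ Φ Ψ, IsoOn ρ g₁ g₂ Φ Ψ) ∧
    ∀ N : ℕ, 1 ≤ N → ∀ A₁ A₂ : Cn n N, SmU A₁ → SmU A₂ → (∃ U, Gau₀ (Om ρ) U 0 A₁) →
      ∀ G : Set (V n), IsOpen G → P.Acc ρ G g₁ A₁ g₂ A₂ → P.SDG G (Om ρ) g₁ A₁ g₂ A₂ →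
      ∃ Φ Ψ U, IsoOn ρ g₁ g₂ Φ Ψ ∧ Gau (Om ρ) U (H158.pbF Φ A₁) A₂

/-- (B_SC) two metrics near `e` on any smooth bounded domain; from B_FIN by scaling, cut-off and
tensors to metrics (model: `H607/XSc.lean`, `finC`). -/
def RowBSC : Prop := ∀ n : ℕ, 3 ≤ n → ∀ ρ : V n → ℝ, SDom ρ → ∃ (k : ℕ) (ε : ℝ), 0 < ε ∧
  ∀ g₁ g₂ : MF n, SmM g₁ → SmM g₂ → (∀ x, (g₁ x).PosDef) → (∀ x, (g₂ x).PosDef) →
  (∀ i j, Cl k ε (fun x => g₁ x i j - dl i j)) → (∀ i j, Cl k ε (fun x => g₂ x i j - dl i j)) →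
  SE (Om ρ) (sg g₁) (sg g₂) → ∃ Φ Ψ, IsoOn ρ g₁ g₂ Φ Ψ

/-- (B_TOP) the same with connections and data on a patch; from B_SC (models: `conf_conn`,
`rigP_of`, `sdu_all`). -/
def RowBTOP : Prop := ∀ n : ℕ, 3 ≤ n → ∀ ρ : V n → ℝ, SDom ρ → ∃ (k : ℕ) (ε : ℝ), 0 < ε ∧
  ∀ g₁ g₂ : MF n, SmM g₁ → SmM g₂ → (∀ x, (g₁ x).PosDef) → (∀ x, (g₂ x).PosDef) →
  (∀ i j, Cl k ε (fun x => g₁ x i j - dl i j)) → (∀ i j, Cl k ε (fun x => g₂ x i j - dl i j)) →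
  RigT ρ g₁ g₂

end Vale.Agent.P088.HY.Bd
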