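import Vale.Agent.P088.R2.H794.B.Spec3

/-!
# P088, two arbitrary pairs on a smooth domain: the definitions of the statement
-/

open MeasureTheory Set
open scoped ContDiff Matrix

noncomputable section

namespace Vale.Agent.P088.PJ.Bq

open Vale.Agent.P088.LR Vale.Agent.P088.LR.B
open Vale.Agent.P088.HY.Bd (IsoOn)

variable {n N : ℕ}

/-- Equal data on a patch `∂Ω ∩ G`, the pairs equal near the rest of the boundary, imply that the
pairs are isomorphic. -/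
def RigQ (ρ : V n → ℝ) (g₁ : MF n) (A₁ : Cn n N) (g₂ : MF n) (A₂ : Cn n N) : Prop :=
  ∀ G : Set (V n), IsOpen G → P.Acc ρ G g₁ A₁ g₂ A₂ → P.SDG G (Om ρ) g₁ A₁ g₂ A₂ →
    ∃ Φ Ψ U, IsoOn ρ g₁ g₂ Φ Ψ ∧ Gau (Om ρ) U (H158.pbF Φ A₁) A₂

/-- The entries of a connection are at most `ε`. -/
def C0 (ε : ℝ) (A : Cn n N) : Prop := ∀ x, ∀ i α β, ‖A i x α β‖ ≤ ε

/-- Smooth unitary connections; the derivatives of order `l ≤ k` of the entries are at most
`b l`. -/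
def ConB (k : ℕ) (b : ℕ → ℝ) (A : Cn n N) : Prop := SmU A ∧ ∀ i α β, ∀ l ≤ k, ∀ x,
  ‖iteratedFDeriv ℝ l (fun x => A i x α β) x‖ ≤ b l

end Vale.Agent.P088.PJ.Bq
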